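import Vale.Agent.P347.Top2

open Filter Topology Vale.Agent.P347

theorem Vale.Agent.Results.P347.ExponentZero.result :
    (∀ η : ℝ, 0 < η → ∃ d₀ : ℕ, ∀ d ≥ d₀, ∃ q : ℕ, (q : ℝ) ≤ (d : ℝ) ^ η ∧ Solves d q) ∧
    (∀ᶠ d in atTop, 1 ≤ Q d ∧ Solves d (Q d)) ∧
    Tendsto (fun d : ℕ => Real.log (Q d) / Real.log d) atTop (𝓝 0) ∧
    limsup (fun d : ℕ => Real.log (Q d) / Real.log d) atTop = 0 := by
  refine ⟨main, ?_, tendsto_of_solves main, (tendsto_of_solves main).limsup_eq⟩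
  obtain ⟨d₀, h⟩ := main 1 one_pos
  filter_upwards [not_solves_zero, eventually_ge_atTop d₀] with d h0 hd
  obtain ⟨q, _, hq⟩ := h d hd
  have hQ : Solves d (Q d) := Nat.sInf_mem (s := {q | Solves d q}) ⟨q, hq⟩
  refine ⟨Nat.pos_of_ne_zero fun e => h0 (e ▸ hQ), hQ⟩
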